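import Vale.Agent.Lib.P335.BipChain.Defs
import Vale.Agent.Lib.P335.Bip.RelBasic
import Vale.Agent.Lib.P335.Split.Block

/-!
# P335: basic facts on `tables`, `IsSwitch` and their relation with the block classes of `Bip`
-/

namespace Vale.Agent.Lib.P335.BipChain

open Finset
open scoped Classical

variable {R C : Type*} [Fintype R] [Fintype C]

theorem mem_tables {r : R → ℕ} {c : C → ℕ} {M : R → C → Bool} :
    M ∈ tables r c ↔ (∀ i, Bip.rowSum M i = r i) ∧ (∀ j, Bip.colSum M j = c j) := by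
  unfold tables Bip.rowSum Bip.colSum
  rw [Finset.mem_filter]
  exact ⟨fun h => h.2, fun h => ⟨Finset.mem_univ _, h⟩⟩

/-- Inside `tables r c` the class of the full block is `tables r c`. -/
theorem mem_tables_iff_rel {r : R → ℕ} {c : C → ℕ} {M N : R → C → Bool}
    (hM : M ∈ tables r c) : N ∈ tables r c ↔ Bip.Rel univ univ M N := by
  rw [mem_tables] at hM
  rw [mem_tables]
  constructor
  · intro h
    refine ⟨fun i j hij => absurd ⟨Finset.mem_univ i, Finset.mem_univ j⟩ hij, ?_, ?_⟩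
    · intro i
      rw [h.1 i, hM.1 i]
    · intro j
      rw [h.2 j, hM.2 j]
  · intro h
    refine ⟨fun i => ?_, fun j => ?_⟩
    · rw [h.2.1 i, hM.1 i]
    · rw [h.2.2 j, hM.2 j]

theorem rel_mem_tables {r : R → ℕ} {c : C → ℕ} {S : Finset R} {T : Finset C}
    {M N : R → C → Bool} (h : Bip.Rel S T M N) (hM : M ∈ tables r c) : N ∈ tables r c :=
  (mem_tables_iff_rel hM).mpr (Bip.rel_mono (Finset.subset_univ _) (Finset.subset_univ _) h)

theorem cls_univ_eq {r : R → ℕ} {c : C → ℕ} {M : R → C → Bool} (hM : M ∈ tables r c) :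
    Bip.cls univ univ M = tables r c := by
  ext N
  rw [mem_tables_iff_rel hM]
  unfold Bip.cls
  rw [Finset.mem_filter]
  exact ⟨fun h => h.2, fun h => ⟨Finset.mem_univ _, h⟩⟩

omit [Fintype R] [Fintype C] in
theorem IsSwitch.symm {M N : R → C → Bool} (h : IsSwitch M N) : IsSwitch N M := by
  obtain ⟨i, i', x, y, hi, hx, m1, m2, m3, m4, n1, n2, n3, n4, hrest⟩ := h
  refine ⟨i, i', y, x, hi, hx.symm, n3, n4, n1, n2, m3, m4, m1, m2, ?_⟩
  intro a b hab
  refine (hrest a b ?_).symm
  rintro ⟨ha, hb⟩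
  exact hab ⟨ha, hb.symm⟩

omit [Fintype R] [Fintype C] in
theorem IsSwitch.ne {M N : R → C → Bool} (h : IsSwitch M N) : M ≠ N := by
  obtain ⟨i, i', x, y, hi, hx, m1, m2, m3, m4, n1, n2, n3, n4, hrest⟩ := h
  intro e
  rw [e, n1] at m1
  exact Bool.false_ne_true m1

omit [Fintype R] [Fintype C] in
/-- A switch in the sense of `IsSwitch` is the matrix `Bip.switchMat`. -/
theorem IsSwitch.eq_switchMat {M N : R → C → Bool} (h : IsSwitch M N) :
    ∃ i i' : R, ∃ x y : C, i ≠ i' ∧ x ≠ y ∧ M i x = true ∧ M i' x = false ∧ M i y = false ∧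
      M i' y = true ∧ N = Bip.switchMat M i i' x y := by
  obtain ⟨i, i', x, y, hi, hx, m1, m2, m3, m4, n1, n2, n3, n4, hrest⟩ := h
  refine ⟨i, i', x, y, hi, hx, m1, m4, m3, m2, ?_⟩
  funext a b
  unfold Bip.switchMat
  split_ifs with c1 c2 c3 c4
  · rw [c1.1, c1.2]
    exact n1
  · rw [c2.1, c2.2]
    exact n3
  · rw [c3.1, c3.2]
    exact n4
  · rw [c4.1, c4.2]
    exact n2
  · apply hrest
    rintro ⟨ha, hb⟩
    rcases ha with ha | ha <;> rcases hb with hb | hb
    · exact c1 ⟨ha, hb⟩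
    · exact c2 ⟨ha, hb⟩
    · exact c3 ⟨ha, hb⟩
    · exact c4 ⟨ha, hb⟩

/-- A switch stays in the class of a `2 × 2` block. -/
theorem IsSwitch.rel_pair {M N : R → C → Bool} (h : IsSwitch M N) :
    ∃ p : Finset R, ∃ q : Finset C, p.card = 2 ∧ q.card = 2 ∧ Bip.Rel p q M N := by
  obtain ⟨i, i', x, y, hi, hx, h1, h2, h3, h4, rfl⟩ := h.eq_switchMat
  exact ⟨{i, i'}, {x, y}, Finset.card_pair hi, Finset.card_pair hx,
    Bip.rel_switchMat hi hx h1 h2 h3 h4⟩

theorem IsSwitch.mem_tables {r : R → ℕ} {c : C → ℕ} {M N : R → C → Bool} (h : IsSwitch M N)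
    (hM : M ∈ tables r c) : N ∈ tables r c := by
  obtain ⟨p, q, -, -, hrel⟩ := h.rel_pair
  exact rel_mem_tables hrel hM

omit [Fintype R] [Fintype C] in
private theorem switchMat_entries (M : R → C → Bool) {i i' : R} {x y : C} (hi : i ≠ i')
    (hx : x ≠ y) :
    Bip.switchMat M i i' x y i x = false ∧ Bip.switchMat M i i' x y i' y = false ∧
      Bip.switchMat M i i' x y i y = true ∧ Bip.switchMat M i i' x y i' x = true ∧
      ∀ a b, ¬ ((a = i ∨ a = i') ∧ (b = x ∨ b = y)) → Bip.switchMat M i i' x y a b = M a b := by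
  have hi' : ¬ i' = i := fun e => hi e.symm
  have hx' : ¬ y = x := fun e => hx e.symm
  refine ⟨?_, ?_, ?_, ?_, ?_⟩
  · simp [Bip.switchMat]
  · simp [Bip.switchMat, hi', hx']
  · simp [Bip.switchMat, hx']
  · simp [Bip.switchMat, hi']
  · intro a b hab
    unfold Bip.switchMat
    split_ifs with c1 c2 c3 c4
    · exact absurd ⟨Or.inl c1.1, Or.inl c1.2⟩ hab
    · exact absurd ⟨Or.inl c2.1, Or.inr c2.2⟩ hab
    · exact absurd ⟨Or.inr c3.1, Or.inl c3.2⟩ hab
    · exact absurd ⟨Or.inr c4.1, Or.inr c4.2⟩ hab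
    · rfl

/-- An element of the class of a `2 × 2` block different from `M` is a switch of `M`. -/
theorem isSwitch_of_rel_pair {p : Finset R} {q : Finset C} (hp : p.card = 2) (hq : q.card = 2)
    {M N : R → C → Bool} (h : Bip.Rel p q M N) (hne : N ≠ M) : IsSwitch M N := by
  obtain ⟨i, i', x, y, -, -, hi, hx, h1, h2, h3, h4, rfl⟩ := Bip.rel_pair_switch hp hq h hne
  obtain ⟨e1, e2, e3, e4, e5⟩ := switchMat_entries M hi hx
  exact ⟨i, i', x, y, hi, hx, h1, h4, h3, h2, e1, e2, e3, e4, e5⟩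

/-- The number of switches of a matrix is at most the number of `2 × 2` blocks. -/
theorem card_switch_le (M : R → C → Bool) :
    (Finset.univ.filter (fun K : R → C → Bool => IsSwitch M K)).card
      ≤ (Fintype.card R).choose 2 * (Fintype.card C).choose 2 := by
  have hsub : Finset.univ.filter (fun K : R → C → Bool => IsSwitch M K)
      ⊆ ((univ : Finset R).powersetCard 2 ×ˢ (univ : Finset C).powersetCard 2).biUnion
          (fun x => (Bip.cls x.1 x.2 M).filter (fun K => K ≠ M)) := by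
    intro K hK
    rw [Finset.mem_filter] at hK
    obtain ⟨p, q, hp, hq, hrel⟩ := hK.2.rel_pair
    rw [Finset.mem_biUnion]
    refine ⟨(p, q), ?_, ?_⟩
    · rw [Finset.mem_product, Finset.mem_powersetCard, Finset.mem_powersetCard]
      exact ⟨⟨Finset.subset_univ _, hp⟩, ⟨Finset.subset_univ _, hq⟩⟩
    · rw [Finset.mem_filter]
      refine ⟨?_, fun e => hK.2.ne e.symm⟩
      unfold Bip.cls
      rw [Finset.mem_filter]
      exact ⟨Finset.mem_univ _, hrel⟩
  have hone : ∀ x ∈ (univ : Finset R).powersetCard 2 ×ˢ (univ : Finset C).powersetCard 2,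
      ((Bip.cls x.1 x.2 M).filter (fun K => K ≠ M)).card ≤ 1 := by
    intro x hx
    rw [Finset.mem_product, Finset.mem_powersetCard, Finset.mem_powersetCard] at hx
    rw [Finset.card_le_one]
    intro M1 h1 M2 h2
    rw [Finset.mem_filter] at h1 h2
    have r1 : Bip.Rel x.1 x.2 M M1 := by
      have := h1.1
      unfold Bip.cls at this
      exact (Finset.mem_filter.mp this).2
    have r2 : Bip.Rel x.1 x.2 M M2 := by
      have := h2.1
      unfold Bip.cls at this
      exact (Finset.mem_filter.mp this).2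
    funext a b
    by_cases hab : a ∈ x.1 ∧ b ∈ x.2
    · rw [Bip.rel_pair_flip hx.1.2 hx.2.2 r1 h1.2 a hab.1 b hab.2,
        Bip.rel_pair_flip hx.1.2 hx.2.2 r2 h2.2 a hab.1 b hab.2]
    · rw [r1.1 a b hab, r2.1 a b hab]
  calc (Finset.univ.filter (fun K : R → C → Bool => IsSwitch M K)).card
      ≤ (((univ : Finset R).powersetCard 2 ×ˢ (univ : Finset C).powersetCard 2).biUnion
          (fun x => (Bip.cls x.1 x.2 M).filter (fun K => K ≠ M))).card :=
        Finset.card_le_card hsub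
    _ ≤ ∑ x ∈ (univ : Finset R).powersetCard 2 ×ˢ (univ : Finset C).powersetCard 2,
          ((Bip.cls x.1 x.2 M).filter (fun K => K ≠ M)).card := Finset.card_biUnion_le
    _ ≤ ∑ _x ∈ (univ : Finset R).powersetCard 2 ×ˢ (univ : Finset C).powersetCard 2, 1 :=
        Finset.sum_le_sum hone
    _ = (Fintype.card R).choose 2 * (Fintype.card C).choose 2 := by
        rw [Finset.sum_const, smul_eq_mul, mul_one, Finset.card_product,
          Finset.card_powersetCard, Finset.card_powersetCard, Finset.card_univ, Finset.card_univ]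

end Vale.Agent.Lib.P335.BipChain
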