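import Vale.Agent.Lib.P335.BipChain.Basic

/-!
# P335: the lazy switch chain as an operator; a Poincare inequality gives a mixing bound
-/

namespace Vale.Agent.Lib.P335.BipChain

open Finset
open scoped Classical

variable {R C : Type*} [Fintype R] [Fintype C]

/-- Sum over ordered pairs of matrices of `tables r c` joined by a switch of the squared difference of `u`
(each unordered pair is counted twice). -/
noncomputable def switchEnergy (r : R → ℕ) (c : C → ℕ) (u : (R → C → Bool) → ℝ) : ℝ :=
  ∑ G ∈ tables r c, ∑ H ∈ tables r c, if IsSwitch G H then (u G - u H) ^ 2 else 0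

/-- One step of the chain applied to a row vector `u`. -/
noncomputable def stepOp (r : R → ℕ) (c : C → ℕ) (u : (R → C → Bool) → ℝ) :
    (R → C → Bool) → ℝ :=
  fun H => ∑ K ∈ tables r c, u K * kernel K H

/-- The discrete Laplacian of the switch graph on `tables r c`. -/
noncomputable def lapOp (r : R → ℕ) (c : C → ℕ) (u : (R → C → Bool) → ℝ) :
    (R → C → Bool) → ℝ :=
  fun H => ∑ K ∈ tables r c, if IsSwitch H K then (u H - u K) else 0

theorem moveProb_nonneg (m n : ℕ) : 0 ≤ moveProb m n := by
  unfold moveProb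
  positivity

theorem moveProb_mul_le (m n : ℕ) :
    moveProb m n * ((m.choose 2 : ℝ) * (n.choose 2 : ℝ)) ≤ 1 / 2 := by
  unfold moveProb
  by_cases h : (m.choose 2 : ℝ) * (n.choose 2 : ℝ) = 0
  · rw [h]; norm_num
  · have hpos : (0 : ℝ) < (m.choose 2 : ℝ) * (n.choose 2 : ℝ) :=
      lt_of_le_of_ne (by positivity) (Ne.symm h)
    have e : 1 / (4 * (m.choose 2 : ℝ) * (n.choose 2 : ℝ))
        * ((m.choose 2 : ℝ) * (n.choose 2 : ℝ)) = 1 / 4 := by
      have hne : (m.choose 2 : ℝ) * (n.choose 2 : ℝ) ≠ 0 := h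
      rw [mul_assoc, div_mul_eq_mul_div, one_mul, div_eq_div_iff (by positivity) (by norm_num)]
      ring
    rw [e]
    norm_num

theorem kernel_symm (G H : (R → C → Bool)) : kernel G H = kernel H G := by
  unfold kernel
  by_cases h : G = H
  · subst h; rfl
  · have h' : ¬ H = G := fun e => h e.symm
    rw [if_neg h, if_neg h']
    by_cases hs : IsSwitch G H
    · rw [if_pos hs, if_pos hs.symm]
    · have hs' : ¬ IsSwitch H G := fun e => hs e.symm
      rw [if_neg hs, if_neg hs']

theorem card_switch_eq_sum {r : R → ℕ} {c : C → ℕ} {H : (R → C → Bool)} (hH : H ∈ tables r c) :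
    ((Finset.univ.filter (fun K => IsSwitch H K)).card : ℝ)
      = ∑ K ∈ tables r c, if IsSwitch H K then (1 : ℝ) else 0 := by
  have : Finset.univ.filter (fun K => IsSwitch H K)
      = (tables r c).filter (fun K => IsSwitch H K) := by
    ext K
    simp only [Finset.mem_filter, Finset.mem_univ, true_and]
    constructor
    · intro h; exact ⟨h.mem_tables hH, h⟩
    · intro h; exact h.2
  rw [this, Finset.card_filter]
  push_cast
  rfl

theorem stepOp_eq {r : R → ℕ} {c : C → ℕ} (u : (R → C → Bool) → ℝ) {H : (R → C → Bool)}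
    (hH : H ∈ tables r c) :
    stepOp r c u H = u H - moveProb (Fintype.card R) (Fintype.card C) * lapOp r c u H := by
  unfold stepOp lapOp
  have h1 : ∀ K ∈ tables r c, u K * kernel K H
      = (if K = H then u H * (1 - ((Finset.univ.filter (fun K => IsSwitch H K)).card : ℝ)
            * moveProb (Fintype.card R) (Fintype.card C)) else 0)
        + moveProb (Fintype.card R) (Fintype.card C) * (if IsSwitch H K then u K else 0) := by
    intro K _
    unfold kernel
    by_cases hKH : K = H
    · subst hKH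
      have : ¬ IsSwitch K K := fun e => e.ne rfl
      simp [this]
    · rw [if_neg hKH, if_neg hKH]
      by_cases hs : IsSwitch K H
      · rw [if_pos hs, if_pos hs.symm]; ring
      · have hs' : ¬ IsSwitch H K := fun e => hs e.symm
        rw [if_neg hs, if_neg hs']; ring
  rw [Finset.sum_congr rfl h1, Finset.sum_add_distrib, Finset.sum_ite_eq' (tables r c) H,
    if_pos hH, ← Finset.mul_sum, card_switch_eq_sum hH]
  have h2 : ∀ K ∈ tables r c, (if IsSwitch H K then (u H - u K) else 0)
      = u H * (if IsSwitch H K then (1 : ℝ) else 0) - (if IsSwitch H K then u K else 0) := by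
    intro K _
    by_cases hs : IsSwitch H K <;> simp [hs]
  rw [Finset.sum_congr rfl h2, Finset.sum_sub_distrib, ← Finset.mul_sum]
  ring

theorem sum_lapOp (r : R → ℕ) (c : C → ℕ) (u : (R → C → Bool) → ℝ) :
    ∑ H ∈ tables r c, lapOp r c u H = 0 := by
  unfold lapOp
  have h1 : ∑ H ∈ tables r c, ∑ K ∈ tables r c,
      (if IsSwitch H K then (u H - u K) else 0)
      = ∑ H ∈ tables r c, ∑ K ∈ tables r c,
      (if IsSwitch H K then (u K - u H) else 0) := by
    rw [Finset.sum_comm]
    apply Finset.sum_congr rfl; intro H _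
    apply Finset.sum_congr rfl; intro K _
    by_cases hs : IsSwitch H K
    · rw [if_pos hs, if_pos hs.symm]
    · have hs' : ¬ IsSwitch K H := fun e => hs e.symm
      rw [if_neg hs, if_neg hs']
  have h2 : ∑ H ∈ tables r c, ∑ K ∈ tables r c,
      (if IsSwitch H K then (u K - u H) else 0)
      = - ∑ H ∈ tables r c, ∑ K ∈ tables r c,
      (if IsSwitch H K then (u H - u K) else 0) := by
    rw [← Finset.sum_neg_distrib]
    apply Finset.sum_congr rfl; intro H _
    rw [← Finset.sum_neg_distrib]
    apply Finset.sum_congr rfl; intro K _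
    by_cases hs : IsSwitch H K <;> simp [hs]
  linarith

theorem sum_stepOp (r : R → ℕ) (c : C → ℕ) (u : (R → C → Bool) → ℝ) :
    ∑ H ∈ tables r c, stepOp r c u H = ∑ H ∈ tables r c, u H := by
  rw [Finset.sum_congr rfl (fun H hH => stepOp_eq u hH), Finset.sum_sub_distrib,
    ← Finset.mul_sum, sum_lapOp]
  ring

theorem sum_mul_lapOp (r : R → ℕ) (c : C → ℕ) (u : (R → C → Bool) → ℝ) :
    ∑ H ∈ tables r c, u H * lapOp r c u H = switchEnergy r c u / 2 := by
  unfold lapOp switchEnergy
  have h1 : ∑ H ∈ tables r c, u H * ∑ K ∈ tables r c,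
      (if IsSwitch H K then (u H - u K) else 0)
      = ∑ H ∈ tables r c, ∑ K ∈ tables r c,
        (if IsSwitch H K then u H * (u H - u K) else 0) := by
    apply Finset.sum_congr rfl; intro H _
    rw [Finset.mul_sum]
    apply Finset.sum_congr rfl; intro K _
    by_cases hs : IsSwitch H K <;> simp [hs]
  have h2 : ∑ H ∈ tables r c, ∑ K ∈ tables r c,
        (if IsSwitch H K then u H * (u H - u K) else 0)
      = ∑ H ∈ tables r c, ∑ K ∈ tables r c,
        (if IsSwitch H K then u K * (u K - u H) else 0) := by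
    rw [Finset.sum_comm]
    apply Finset.sum_congr rfl; intro H _
    apply Finset.sum_congr rfl; intro K _
    by_cases hs : IsSwitch H K
    · rw [if_pos hs, if_pos hs.symm]
    · have hs' : ¬ IsSwitch K H := fun e => hs e.symm
      rw [if_neg hs, if_neg hs']
  have h3 : ∑ H ∈ tables r c, ∑ K ∈ tables r c,
        (if IsSwitch H K then (u H - u K) ^ 2 else 0)
      = ∑ H ∈ tables r c, ∑ K ∈ tables r c,
        (if IsSwitch H K then u H * (u H - u K) else 0)
        + ∑ H ∈ tables r c, ∑ K ∈ tables r c,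
        (if IsSwitch H K then u K * (u K - u H) else 0) := by
    rw [← Finset.sum_add_distrib]
    apply Finset.sum_congr rfl; intro H _
    rw [← Finset.sum_add_distrib]
    apply Finset.sum_congr rfl; intro K _
    by_cases hs : IsSwitch H K
    · simp only [if_pos hs]; ring
    · simp [hs]
  rw [h1, h3, ← h2]
  ring

theorem lapOp_sq_le (r : R → ℕ) (c : C → ℕ) (u : (R → C → Bool) → ℝ) (H : (R → C → Bool)) :
    (lapOp r c u H) ^ 2 ≤ (((Fintype.card R).choose 2 : ℝ) * ((Fintype.card C).choose 2 : ℝ)) *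
      ∑ K ∈ tables r c, if IsSwitch H K then (u H - u K) ^ 2 else 0 := by
  unfold lapOp
  have hfil : ∀ g : (R → C → Bool) → ℝ,
      ∑ K ∈ tables r c, (if IsSwitch H K then g K else 0)
        = ∑ K ∈ (tables r c).filter (fun K => IsSwitch H K), g K := by
    intro g; rw [Finset.sum_filter]
  rw [hfil (fun K => u H - u K), hfil (fun K => (u H - u K) ^ 2)]
  have hcs := sq_sum_le_card_mul_sum_sq (s := (tables r c).filter (fun K => IsSwitch H K))
    (f := fun K => u H - u K)
  have hcard : (((tables r c).filter (fun K => IsSwitch H K)).card : ℝ)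
      ≤ ((Fintype.card R).choose 2 : ℝ) * ((Fintype.card C).choose 2 : ℝ) := by
    have h1 : ((tables r c).filter (fun K => IsSwitch H K)).card
        ≤ (Finset.univ.filter (fun K => IsSwitch H K)).card :=
      Finset.card_le_card (Finset.filter_subset_filter _ (Finset.subset_univ _))
    have h2 := card_switch_le H
    exact_mod_cast h1.trans h2
  have hnn : 0 ≤ ∑ K ∈ (tables r c).filter (fun K => IsSwitch H K), (u H - u K) ^ 2 :=
    Finset.sum_nonneg (fun K _ => sq_nonneg _)
  calc (∑ K ∈ (tables r c).filter (fun K => IsSwitch H K), (u H - u K)) ^ 2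
      ≤ (((tables r c).filter (fun K => IsSwitch H K)).card : ℝ)
          * ∑ K ∈ (tables r c).filter (fun K => IsSwitch H K), (u H - u K) ^ 2 := hcs
    _ ≤ (((Fintype.card R).choose 2 : ℝ) * ((Fintype.card C).choose 2 : ℝ))
          * ∑ K ∈ (tables r c).filter (fun K => IsSwitch H K), (u H - u K) ^ 2 :=
        mul_le_mul_of_nonneg_right hcard hnn

/-- Energy inequality for one step of the lazy chain. -/
theorem sum_sq_stepOp_le (r : R → ℕ) (c : C → ℕ) (u : (R → C → Bool) → ℝ) :
    ∑ H ∈ tables r c, (stepOp r c u H) ^ 2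
      ≤ ∑ H ∈ tables r c, (u H) ^ 2 - moveProb (Fintype.card R) (Fintype.card C) / 2 * switchEnergy r c u := by
  have hq := moveProb_nonneg (Fintype.card R) (Fintype.card C)
  have hq2 := moveProb_mul_le (Fintype.card R) (Fintype.card C)
  have h1 : ∑ H ∈ tables r c, (stepOp r c u H) ^ 2
      = ∑ H ∈ tables r c, (u H) ^ 2 - 2 * moveProb (Fintype.card R) (Fintype.card C) * ∑ H ∈ tables r c, u H * lapOp r c u H
        + moveProb (Fintype.card R) (Fintype.card C) ^ 2 * ∑ H ∈ tables r c, (lapOp r c u H) ^ 2 := by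
    rw [Finset.mul_sum, Finset.mul_sum, ← Finset.sum_sub_distrib, ← Finset.sum_add_distrib]
    apply Finset.sum_congr rfl; intro H hH
    rw [stepOp_eq u hH]; ring
  have h2 : ∑ H ∈ tables r c, (lapOp r c u H) ^ 2
      ≤ (((Fintype.card R).choose 2 : ℝ) * ((Fintype.card C).choose 2 : ℝ)) * switchEnergy r c u := by
    unfold switchEnergy
    rw [Finset.mul_sum]
    exact Finset.sum_le_sum (fun H _ => lapOp_sq_le r c u H)
  have hE : 0 ≤ switchEnergy r c u := by
    unfold switchEnergy
    apply Finset.sum_nonneg; intro G _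
    apply Finset.sum_nonneg; intro H _
    by_cases hs : IsSwitch G H
    · rw [if_pos hs]; exact sq_nonneg _
    · rw [if_neg hs]
  rw [h1, sum_mul_lapOp]
  have h3 : moveProb (Fintype.card R) (Fintype.card C) ^ 2 * ∑ H ∈ tables r c, (lapOp r c u H) ^ 2
      ≤ moveProb (Fintype.card R) (Fintype.card C) ^ 2 * ((((Fintype.card R).choose 2 : ℝ) * ((Fintype.card C).choose 2 : ℝ)) * switchEnergy r c u) :=
    mul_le_mul_of_nonneg_left h2 (sq_nonneg _)
  have h4 : moveProb (Fintype.card R) (Fintype.card C) ^ 2 * ((((Fintype.card R).choose 2 : ℝ) * ((Fintype.card C).choose 2 : ℝ)) * switchEnergy r c u)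
      ≤ moveProb (Fintype.card R) (Fintype.card C) * (1 / 2) * switchEnergy r c u := by
    have : moveProb (Fintype.card R) (Fintype.card C) * (moveProb (Fintype.card R) (Fintype.card C) * (((Fintype.card R).choose 2 : ℝ) * ((Fintype.card C).choose 2 : ℝ))) ≤ moveProb (Fintype.card R) (Fintype.card C) * (1 / 2) :=
      mul_le_mul_of_nonneg_left hq2 hq
    nlinarith [this, hE]
  linarith

/-- Poincare inequality with constant `γ` for the chain of `d`: for every `u` with zero sum on
the realizations, `γ * Σ u² ≤ (moveProb (Fintype.card R) (Fintype.card C) / 2) * switchEnergy r c u` (the right side is the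
Dirichlet form `(1/2) Σ_{G,H} P(G,H) (u G - u H)²`). -/
def Poincare (r : R → ℕ) (c : C → ℕ) (γ : ℝ) : Prop :=
  ∀ u : (R → C → Bool) → ℝ, ∑ H ∈ tables r c, u H = 0 →
    γ * ∑ H ∈ tables r c, (u H) ^ 2 ≤ moveProb (Fintype.card R) (Fintype.card C) / 2 * switchEnergy r c u

theorem sum_sq_stepOp_le_of_poincare {r : R → ℕ} {c : C → ℕ} {γ : ℝ} (hP : Poincare r c γ)
    (u : (R → C → Bool) → ℝ) (hu : ∑ H ∈ tables r c, u H = 0) :
    ∑ H ∈ tables r c, (stepOp r c u H) ^ 2 ≤ (1 - γ) * ∑ H ∈ tables r c, (u H) ^ 2 := by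
  have h1 := sum_sq_stepOp_le r c u
  have h2 := hP u hu
  linarith

/-- The distribution after `t` steps minus the uniform distribution. -/
noncomputable def centered (r : R → ℕ) (c : C → ℕ) (G : (R → C → Bool)) (t : ℕ) :
    (R → C → Bool) → ℝ :=
  fun H => dist r c G t H - 1 / ((tables r c).card : ℝ)

theorem stepOp_one {r : R → ℕ} {c : C → ℕ} {H : (R → C → Bool)} (hH : H ∈ tables r c) :
    stepOp r c (fun _ => (1 : ℝ)) H = 1 := by
  rw [stepOp_eq _ hH]
  unfold lapOp
  simp

theorem dist_succ (r : R → ℕ) (c : C → ℕ) (G : (R → C → Bool)) (t : ℕ) :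
    dist r c G (t + 1) = stepOp r c (dist r c G t) := rfl

theorem centered_succ {r : R → ℕ} {c : C → ℕ} (G : (R → C → Bool)) (t : ℕ)
    {H : (R → C → Bool)} (hH : H ∈ tables r c) :
    centered r c G (t + 1) H = stepOp r c (centered r c G t) H := by
  unfold centered
  rw [dist_succ]
  have h1 := stepOp_one hH
  unfold stepOp at h1 ⊢
  have h2 : ∑ K ∈ tables r c, (dist r c G t K - 1 / ((tables r c).card : ℝ)) * kernel K H
      = ∑ K ∈ tables r c, dist r c G t K * kernel K H
        - 1 / ((tables r c).card : ℝ) * ∑ K ∈ tables r c, 1 * kernel K H := by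
    rw [Finset.mul_sum, ← Finset.sum_sub_distrib]
    apply Finset.sum_congr rfl; intro K _; ring
  rw [h2, h1]; ring

theorem sum_dist {r : R → ℕ} {c : C → ℕ} {G : (R → C → Bool)} (hG : G ∈ tables r c) (t : ℕ) :
    ∑ H ∈ tables r c, dist r c G t H = 1 := by
  induction t with
  | zero =>
    simp only [dist]
    rw [Finset.sum_ite_eq' (tables r c) G, if_pos hG]
  | succ t ih =>
    rw [dist_succ, sum_stepOp, ih]

theorem sum_centered {r : R → ℕ} {c : C → ℕ} {G : (R → C → Bool)} (hG : G ∈ tables r c)
    (t : ℕ) : ∑ H ∈ tables r c, centered r c G t H = 0 := by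
  unfold centered
  rw [Finset.sum_sub_distrib, sum_dist hG, Finset.sum_const, nsmul_eq_mul]
  have hN : ((tables r c).card : ℝ) ≠ 0 := by
    have : 0 < (tables r c).card := Finset.card_pos.mpr ⟨G, hG⟩
    positivity
  field_simp
  ring

theorem sum_sq_centered_zero {r : R → ℕ} {c : C → ℕ} {G : (R → C → Bool)}
    (hG : G ∈ tables r c) : ∑ H ∈ tables r c, (centered r c G 0 H) ^ 2 ≤ 1 := by
  unfold centered
  simp only [dist]
  have hNpos : (0 : ℝ) < (tables r c).card := by
    have : 0 < (tables r c).card := Finset.card_pos.mpr ⟨G, hG⟩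
    exact_mod_cast this
  have h1 : ∀ H ∈ tables r c,
      ((if H = G then (1 : ℝ) else 0) - 1 / ((tables r c).card : ℝ)) ^ 2
      = (if H = G then (1 - 2 / ((tables r c).card : ℝ)) else 0)
        + (1 / ((tables r c).card : ℝ)) ^ 2 := by
    intro H _
    by_cases h : H = G
    · simp only [h, if_true]; ring
    · simp only [h, if_false]; ring
  rw [Finset.sum_congr rfl h1, Finset.sum_add_distrib, Finset.sum_ite_eq' (tables r c) G,
    if_pos hG, Finset.sum_const, nsmul_eq_mul]
  have h2 : ((tables r c).card : ℝ) * (1 / ((tables r c).card : ℝ)) ^ 2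
      = 1 / ((tables r c).card : ℝ) := by
    field_simp
  rw [h2]
  have h3 : (0 : ℝ) < 1 / ((tables r c).card : ℝ) := by positivity
  have h4 : 2 / ((tables r c).card : ℝ) = 2 * (1 / ((tables r c).card : ℝ)) := by ring
  rw [h4]
  linarith

theorem sum_sq_centered_le {r : R → ℕ} {c : C → ℕ} {γ : ℝ} (hγ1 : γ ≤ 1) (hP : Poincare r c γ)
    {G : (R → C → Bool)} (hG : G ∈ tables r c) (t : ℕ) :
    ∑ H ∈ tables r c, (centered r c G t H) ^ 2 ≤ (1 - γ) ^ t := by
  induction t with
  | zero => simpa using sum_sq_centered_zero hG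
  | succ t ih =>
    have h1 : ∑ H ∈ tables r c, (centered r c G (t + 1) H) ^ 2
        = ∑ H ∈ tables r c, (stepOp r c (centered r c G t) H) ^ 2 := by
      apply Finset.sum_congr rfl; intro H hH
      rw [centered_succ G t hH]
    rw [h1]
    have h2 := sum_sq_stepOp_le_of_poincare hP (centered r c G t) (sum_centered hG t)
    have h3 : (1 - γ) * ∑ H ∈ tables r c, (centered r c G t H) ^ 2 ≤ (1 - γ) * (1 - γ) ^ t :=
      mul_le_mul_of_nonneg_left ih (by linarith)
    rw [pow_succ]
    linarith

/-- A Poincare inequality with constant `γ` gives mixing at every time `t ≥ ln(4N)/γ`. -/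
theorem mixed_of_poincare {r : R → ℕ} {c : C → ℕ} {γ : ℝ} (hγ1 : γ ≤ 1)
    (hP : Poincare r c γ) (t : ℕ)
    (ht : Real.log (4 * ((tables r c).card : ℝ)) ≤ γ * t) :
    ∀ G ∈ tables r c, tvUniform r c (dist r c G t) ≤ 1 / 4 := by
  intro G hG
  have hNpos : (0 : ℝ) < (tables r c).card := by
    have : 0 < (tables r c).card := Finset.card_pos.mpr ⟨G, hG⟩
    exact_mod_cast this
  have hsq := sum_sq_centered_le hγ1 hP hG t
  have hpow : (1 - γ) ^ t ≤ 1 / (4 * ((tables r c).card : ℝ)) := by
    have h1 : (1 - γ) ≤ Real.exp (-γ) := by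
      have := Real.add_one_le_exp (-γ); linarith
    have h2 : (1 - γ) ^ t ≤ Real.exp (-γ) ^ t := pow_le_pow_left₀ (by linarith) h1 t
    have h3 : Real.exp (-γ) ^ t = Real.exp (-(γ * t)) := by
      rw [← Real.exp_nat_mul]; congr 1; ring
    have h4 : Real.exp (-(γ * t)) ≤ Real.exp (-Real.log (4 * ((tables r c).card : ℝ))) :=
      Real.exp_le_exp.mpr (by linarith)
    have h5 : Real.exp (-Real.log (4 * ((tables r c).card : ℝ)))
        = 1 / (4 * ((tables r c).card : ℝ)) := by
      rw [Real.exp_neg, Real.exp_log (by positivity)]; ring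
    linarith [h2, h3.le, h3.ge, h4, h5.le, h5.ge]
  have habs : (∑ H ∈ tables r c, |centered r c G t H|) ^ 2
      ≤ ((tables r c).card : ℝ) * ∑ H ∈ tables r c, (centered r c G t H) ^ 2 := by
    have := sq_sum_le_card_mul_sum_sq (s := tables r c) (f := fun H => |centered r c G t H|)
    simpa [sq_abs] using this
  have hle : (∑ H ∈ tables r c, |centered r c G t H|) ^ 2 ≤ 1 / 4 := by
    have h1 : ((tables r c).card : ℝ) * ∑ H ∈ tables r c, (centered r c G t H) ^ 2
        ≤ ((tables r c).card : ℝ) * (1 / (4 * ((tables r c).card : ℝ))) :=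
      mul_le_mul_of_nonneg_left (hsq.trans hpow) hNpos.le
    have h2 : ((tables r c).card : ℝ) * (1 / (4 * ((tables r c).card : ℝ))) = 1 / 4 := by
      field_simp
    linarith
  have hnn : 0 ≤ ∑ H ∈ tables r c, |centered r c G t H| :=
    Finset.sum_nonneg (fun H _ => abs_nonneg _)
  have hhalf : ∑ H ∈ tables r c, |centered r c G t H| ≤ 1 / 2 := by
    by_contra hc
    push Not at hc
    nlinarith
  unfold tvUniform
  have : ∑ H ∈ tables r c, |dist r c G t H - 1 / ((tables r c).card : ℝ)|
      = ∑ H ∈ tables r c, |centered r c G t H| := rfl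
  rw [this]
  linarith

end Vale.Agent.Lib.P335.BipChain
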