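import Mathlib

/-!
# P335: the lazy switch chain on 0/1 matrices with prescribed row and column sums

Definitions only.  `R` is the finite set of rows, `C` the finite set of columns, and a 0/1 matrix
is a function `M : R → C → Bool` (equivalently a bipartite graph between `R` and `C`, its row and
column sums being the degrees).
-/

namespace Vale.Agent.Lib.P335.BipChain

open scoped Classical

/-- The set of all 0/1 matrices with exactly `r i` ones in row `i`, for every row `i`, and exactly
`c j` ones in column `j`, for every column `j`. -/
noncomputable def tables {R C : Type*} [Fintype R] [Fintype C] (r : R → ℕ) (c : C → ℕ) :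
    Finset (R → C → Bool) :=
  Finset.univ.filter (fun M =>
    (∀ i, (Finset.univ.filter (fun j => M i j = true)).card = r i) ∧
      (∀ j, (Finset.univ.filter (fun i => M i j = true)).card = c j))

/-- `N` is obtained from `M` by one switch: there are two rows `i ≠ i'` and two columns `x ≠ y`
with `M i x = M i' y = 1` and `M i y = M i' x = 0`; in `N` these four entries are exchanged
(`N i x = N i' y = 0`, `N i y = N i' x = 1`) and all other entries are those of `M`. -/
def IsSwitch {R C : Type*} (M N : R → C → Bool) : Prop :=
  ∃ i i' : R, ∃ x y : C, i ≠ i' ∧ x ≠ y ∧
    M i x = true ∧ M i' y = true ∧ M i y = false ∧ M i' x = false ∧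
    N i x = false ∧ N i' y = false ∧ N i y = true ∧ N i' x = true ∧
    ∀ a b, ¬ ((a = i ∨ a = i') ∧ (b = x ∨ b = y)) → N a b = M a b

/-- The probability `1/2 · 1/(C(m,2) · C(n,2)) · 1/2` with which the lazy chain on `m × n`
matrices proposes one particular switch: it moves at all with probability `1/2`, then picks a pair
of rows and a pair of columns uniformly, then one of the two diagonals of that `2 × 2` block. -/
noncomputable def moveProb (m n : ℕ) : ℝ := 1 / (4 * (m.choose 2 : ℝ) * (n.choose 2 : ℝ))

/-- One-step transition probability of the lazy switch chain: `moveProb` if `N` is obtained from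
`M` by a switch, the remaining mass on the diagonal, and `0` otherwise. -/
noncomputable def kernel {R C : Type*} [Fintype R] [Fintype C] (M N : R → C → Bool) : ℝ :=
  if M = N then
    1 - ((Finset.univ.filter (fun K : R → C → Bool => IsSwitch M K)).card : ℝ)
      * moveProb (Fintype.card R) (Fintype.card C)
  else if IsSwitch M N then moveProb (Fintype.card R) (Fintype.card C) else 0

/-- The distribution of the chain on `tables r c` after `t` steps from the matrix `M₀`. -/
noncomputable def dist {R C : Type*} [Fintype R] [Fintype C] (r : R → ℕ) (c : C → ℕ)
    (M₀ : R → C → Bool) : ℕ → (R → C → Bool) → ℝ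
  | 0 => fun M => if M = M₀ then 1 else 0
  | t + 1 => fun M => ∑ K ∈ tables r c, dist r c M₀ t K * kernel K M

/-- Total variation distance between `μ` and the uniform distribution on `tables r c`. -/
noncomputable def tvUniform {R C : Type*} [Fintype R] [Fintype C] (r : R → ℕ) (c : C → ℕ)
    (μ : (R → C → Bool) → ℝ) : ℝ :=
  (1 / 2) * ∑ M ∈ tables r c, |μ M - 1 / ((tables r c).card : ℝ)|

end Vale.Agent.Lib.P335.BipChain
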