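import Vale.Agent.Lib.P335.BipChain.Basic
import Vale.Agent.Lib.P335.Bip.Main

/-!
# P335: the Poincare inequality for the switch graph on `tables r c` (all margins)

`Bip.switch_poincare` for the full block, rewritten with the explicit switch relation.
-/

namespace Vale.Agent.Lib.P335.BipChain

open Finset
open scoped Classical

variable {R C : Type*} [Fintype R] [Fintype C]

private theorem gap_sum_ite_le {ι : Type*} (s : Finset ι) (P : ι → Prop) [DecidablePred P]
    (c : ℝ) (hc : 0 ≤ c) (huniq : ∀ x ∈ s, ∀ y ∈ s, P x → P y → x = y) :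
    ∑ x ∈ s, (if P x then c else 0) ≤ c := by
  rw [← Finset.sum_filter, Finset.sum_const, nsmul_eq_mul]
  have h1 : (s.filter P).card ≤ 1 := by
    rw [Finset.card_le_one]
    intro a ha b hb
    rw [Finset.mem_filter] at ha hb
    exact huniq a ha.1 b hb.1 ha.2 hb.2
  have h2 : ((s.filter P).card : ℝ) ≤ 1 := by exact_mod_cast h1
  nlinarith

private theorem gap_mem_cls {p : Finset R} {q : Finset C} {M N : R → C → Bool} :
    N ∈ Bip.cls p q M ↔ Bip.Rel p q M N := by
  unfold Bip.cls
  rw [Finset.mem_filter]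
  exact ⟨fun h => h.2, fun h => ⟨Finset.mem_univ _, h⟩⟩

/-- The contribution of one matrix of `tables r c` to the right side. -/
private theorem gap_local (r : R → ℕ) (c : C → ℕ) (f g : (R → C → Bool) → ℝ) (μ : ℝ)
    (hg : ∀ M, g M = if M ∈ tables r c then f M - μ else 0)
    (M : R → C → Bool) (hM : M ∈ tables r c) :
    ∑ x ∈ (univ : Finset R).powersetCard 2 ×ˢ (univ : Finset C).powersetCard 2,
        ∑ M' ∈ (Bip.cls x.1 x.2 M).filter (fun M' => M' ≠ M), (g M - g M') ^ 2 / 4
      ≤ ∑ N ∈ tables r c, if IsSwitch M N then (f M - f N) ^ 2 / 4 else 0 := by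
  have h1 : ∀ x ∈ (univ : Finset R).powersetCard 2 ×ˢ (univ : Finset C).powersetCard 2,
      ∑ M' ∈ (Bip.cls x.1 x.2 M).filter (fun M' => M' ≠ M), (g M - g M') ^ 2 / 4
        = ∑ M' : R → C → Bool,
            if Bip.Rel x.1 x.2 M M' ∧ M' ≠ M then (g M - g M') ^ 2 / 4 else 0 := by
    intro x _
    rw [← Finset.sum_filter]
    apply Finset.sum_congr _ (fun _ _ => rfl)
    ext M'
    rw [Finset.mem_filter, Finset.mem_filter, gap_mem_cls]
    exact ⟨fun h => ⟨Finset.mem_univ _, h⟩, fun h => h.2⟩
  rw [Finset.sum_congr rfl h1, Finset.sum_comm]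
  have h2 : ∀ M' : R → C → Bool,
      ∑ x ∈ (univ : Finset R).powersetCard 2 ×ˢ (univ : Finset C).powersetCard 2,
          (if Bip.Rel x.1 x.2 M M' ∧ M' ≠ M then (g M - g M') ^ 2 / 4 else 0)
        ≤ if M' ∈ tables r c then
            (if IsSwitch M M' then (f M - f M') ^ 2 / 4 else 0)
          else 0 := by
    intro M'
    have key : ∀ x ∈ (univ : Finset R).powersetCard 2 ×ˢ (univ : Finset C).powersetCard 2,
        Bip.Rel x.1 x.2 M M' ∧ M' ≠ M → M' ∈ tables r c ∧ IsSwitch M M' := by
      intro x hx hR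
      rw [Finset.mem_product] at hx
      have hp := Finset.mem_powersetCard.mp hx.1
      have hq := Finset.mem_powersetCard.mp hx.2
      exact ⟨rel_mem_tables hR.1 hM, isSwitch_of_rel_pair hp.2 hq.2 hR.1 hR.2⟩
    by_cases hsw : M' ∈ tables r c ∧ IsSwitch M M'
    · rw [if_pos hsw.1, if_pos hsw.2]
      have hgM : g M = f M - μ := by rw [hg M, if_pos hM]
      have hgM' : g M' = f M' - μ := by rw [hg M', if_pos hsw.1]
      have hdiff : g M - g M' = f M - f M' := by rw [hgM, hgM']; ring
      rw [hdiff]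
      refine gap_sum_ite_le _ _ _ (by positivity) ?_
      intro x hx y hy hPx hPy
      rw [Finset.mem_product] at hx hy
      have hpx := Finset.mem_powersetCard.mp hx.1
      have hqx := Finset.mem_powersetCard.mp hx.2
      have hpy := Finset.mem_powersetCard.mp hy.1
      have hqy := Finset.mem_powersetCard.mp hy.2
      have := Bip.rel_pair_unique hpx.2 hqx.2 hpy.2 hqy.2 hPx.1 hPy.1 hPx.2
      exact Prod.ext this.1 this.2
    · have hzero : ∑ x ∈ (univ : Finset R).powersetCard 2 ×ˢ (univ : Finset C).powersetCard 2,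
          (if Bip.Rel x.1 x.2 M M' ∧ M' ≠ M then (g M - g M') ^ 2 / 4 else 0) = 0 := by
        apply Finset.sum_eq_zero
        intro x hx
        rw [if_neg]
        intro hR
        exact hsw (key x hx hR)
      rw [hzero]
      split_ifs <;> positivity
  refine (Finset.sum_le_sum (fun M' _ => h2 M')).trans ?_
  rw [← Finset.sum_filter]
  have h3 : (Finset.univ.filter (fun M' => M' ∈ tables r c)) = tables r c := by
    ext M'
    rw [Finset.mem_filter]
    exact ⟨fun h => h.2, fun h => ⟨Finset.mem_univ _, h⟩⟩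
  rw [h3]

/-- The Poincare inequality for the switch graph on the 0/1 matrices with row sums `r` and
column sums `c`: the sum of squared deviations from the mean is at most one quarter of the sum,
over the ordered pairs of matrices joined by a switch, of the squared differences. -/
theorem tables_poincare (r : R → ℕ) (c : C → ℕ) (f : (R → C → Bool) → ℝ) :
    ∑ M ∈ tables r c, (f M - (∑ N ∈ tables r c, f N) / ((tables r c).card : ℝ)) ^ 2
      ≤ (1 / 4) * ∑ M ∈ tables r c, ∑ N ∈ tables r c,
          if IsSwitch M N then (f M - f N) ^ 2 else 0 := by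
  obtain ⟨μ, hμ⟩ : ∃ μ : ℝ, μ = (∑ N ∈ tables r c, f N) / ((tables r c).card : ℝ) := ⟨_, rfl⟩
  rw [← hμ]
  obtain ⟨g, hg⟩ : ∃ g : (R → C → Bool) → ℝ,
      ∀ M, g M = if M ∈ tables r c then f M - μ else 0 :=
    ⟨fun M => if M ∈ tables r c then f M - μ else 0, fun _ => rfl⟩
  have hgK : ∀ M ∈ tables r c, g M = f M - μ := by
    intro M hM
    rw [hg M, if_pos hM]
  have hgnK : ∀ M, M ∉ tables r c → g M = 0 := by
    intro M hM
    rw [hg M, if_neg hM]
  -- the average over the full block vanishes on the class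
  have havg : ∀ M ∈ tables r c, Bip.avg univ univ g M = 0 := by
    intro M hM
    unfold Bip.avg
    rw [cls_univ_eq hM]
    have hpos : (0 : ℝ) < ((tables r c).card : ℝ) := by
      have : 0 < (tables r c).card := Finset.card_pos.mpr ⟨M, hM⟩
      exact_mod_cast this
    have hsum : ∑ M' ∈ tables r c, g M' = 0 := by
      rw [Finset.sum_congr rfl hgK, Finset.sum_sub_distrib, Finset.sum_const, nsmul_eq_mul, hμ]
      field_simp
      ring
    rw [hsum, zero_div]
  -- left side
  have hL : ∑ M ∈ tables r c, (f M - μ) ^ 2 ≤ ∑ M, (g M - Bip.avg univ univ g M) ^ 2 := by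
    have e1 : ∑ M ∈ tables r c, (f M - μ) ^ 2
        = ∑ M ∈ tables r c, (g M - Bip.avg univ univ g M) ^ 2 := by
      apply Finset.sum_congr rfl
      intro M hM
      rw [havg M hM, hgK M hM, sub_zero]
    rw [e1]
    exact Finset.sum_le_sum_of_subset_of_nonneg (Finset.subset_univ _)
      (fun M _ _ => sq_nonneg _)
  -- right side
  have hR : ∑ p ∈ (univ : Finset R).powersetCard 2, ∑ q ∈ (univ : Finset C).powersetCard 2,
        ∑ M, (g M - Bip.avg p q g M) ^ 2
      ≤ (1 / 4) * ∑ M ∈ tables r c, ∑ N ∈ tables r c,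
          if IsSwitch M N then (f M - f N) ^ 2 else 0 := by
    rw [← Finset.sum_product']
    have e2 : ∀ x ∈ (univ : Finset R).powersetCard 2 ×ˢ (univ : Finset C).powersetCard 2,
        ∑ M, (g M - Bip.avg x.1 x.2 g M) ^ 2
          = ∑ M, ∑ M' ∈ (Bip.cls x.1 x.2 M).filter (fun M' => M' ≠ M),
              (g M - g M') ^ 2 / 4 := by
      intro x hx
      rw [Finset.mem_product] at hx
      have hp := Finset.mem_powersetCard.mp hx.1
      have hq := Finset.mem_powersetCard.mp hx.2
      exact Finset.sum_congr rfl (fun M _ => Bip.sq_sub_avg_pair hp.2 hq.2 g M)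
    rw [Finset.sum_congr rfl e2, Finset.sum_comm]
    -- matrices outside the class contribute nothing
    have e3 : ∀ M : R → C → Bool, M ∉ tables r c →
        ∑ x ∈ (univ : Finset R).powersetCard 2 ×ˢ (univ : Finset C).powersetCard 2,
          ∑ M' ∈ (Bip.cls x.1 x.2 M).filter (fun M' => M' ≠ M), (g M - g M') ^ 2 / 4 = 0 := by
      intro M hM
      apply Finset.sum_eq_zero
      intro x _
      apply Finset.sum_eq_zero
      intro M' hM'
      have hRel : Bip.Rel x.1 x.2 M M' := gap_mem_cls.mp (Finset.mem_filter.mp hM').1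
      have hM'n : M' ∉ tables r c := by
        intro hc
        exact hM (rel_mem_tables ((Bip.rel_equivalence x.1 x.2).symm hRel) hc)
      rw [hgnK M hM, hgnK M' hM'n]
      norm_num
    have e4 : ∑ M : R → C → Bool,
        ∑ x ∈ (univ : Finset R).powersetCard 2 ×ˢ (univ : Finset C).powersetCard 2,
          ∑ M' ∈ (Bip.cls x.1 x.2 M).filter (fun M' => M' ≠ M), (g M - g M') ^ 2 / 4
        = ∑ M ∈ tables r c,
          ∑ x ∈ (univ : Finset R).powersetCard 2 ×ˢ (univ : Finset C).powersetCard 2,
            ∑ M' ∈ (Bip.cls x.1 x.2 M).filter (fun M' => M' ≠ M), (g M - g M') ^ 2 / 4 := by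
      symm
      apply Finset.sum_subset (Finset.subset_univ _)
      intro M _ hM
      exact e3 M hM
    rw [e4]
    have e5 : ∑ M ∈ tables r c,
          ∑ x ∈ (univ : Finset R).powersetCard 2 ×ˢ (univ : Finset C).powersetCard 2,
            ∑ M' ∈ (Bip.cls x.1 x.2 M).filter (fun M' => M' ≠ M), (g M - g M') ^ 2 / 4
        ≤ ∑ M ∈ tables r c, ∑ N ∈ tables r c,
            if IsSwitch M N then (f M - f N) ^ 2 / 4 else 0 :=
      Finset.sum_le_sum (fun M hM => gap_local r c f g μ hg M hM)
    refine e5.trans (le_of_eq ?_)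
    rw [Finset.mul_sum]
    apply Finset.sum_congr rfl
    intro M _
    rw [Finset.mul_sum]
    apply Finset.sum_congr rfl
    intro N _
    split_ifs <;> ring
  exact hL.trans ((Bip.switch_poincare univ univ g).trans hR)

end Vale.Agent.Lib.P335.BipChain
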