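import Vale.Agent.Lib.P335.BipChain.Chain
import Vale.Agent.Lib.P335.BipChain.Gap

/-!
# P335: the lazy switch chain on `tables r c` is mixed at every time `t ≥ (|R| |C|) ^ 3`
-/

namespace Vale.Agent.Lib.P335.BipChain

open Finset
open scoped Classical

variable {R C : Type*} [Fintype R] [Fintype C]

/-- The Poincare constant `2 * moveProb` of the lazy switch chain, for all margins. -/
theorem poincare_two (r : R → ℕ) (c : C → ℕ) :
    Poincare r c (2 * moveProb (Fintype.card R) (Fintype.card C)) := by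
  intro u hu
  have h1 := tables_poincare r c u
  rw [hu, zero_div] at h1
  simp only [sub_zero] at h1
  have hq := moveProb_nonneg (Fintype.card R) (Fintype.card C)
  have h2 : 2 * moveProb (Fintype.card R) (Fintype.card C) * ∑ H ∈ tables r c, (u H) ^ 2
      ≤ 2 * moveProb (Fintype.card R) (Fintype.card C)
        * ((1 / 4) * ∑ M ∈ tables r c, ∑ N ∈ tables r c,
          if IsSwitch M N then (u M - u N) ^ 2 else 0) :=
    mul_le_mul_of_nonneg_left h1 (by linarith)
  unfold switchEnergy
  linarith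

/-- There are at most `2 ^ (|R| * |C|)` matrices. -/
theorem card_tables_le (r : R → ℕ) (c : C → ℕ) :
    (tables r c).card ≤ 2 ^ (Fintype.card R * Fintype.card C) := by
  have h1 : (tables r c).card ≤ Fintype.card (R → C → Bool) := Finset.card_le_univ _
  have h3 : Fintype.card (R → C → Bool) = 2 ^ (Fintype.card R * Fintype.card C) := by
    rw [Fintype.card_fun, Fintype.card_fun, Fintype.card_bool, ← pow_mul, mul_comm]
  omega

omit [Fintype C] in
private theorem mix_two_le_card_left {M N : R → C → Bool} (h : IsSwitch M N) :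
    2 ≤ Fintype.card R := by
  obtain ⟨i, i', x, y, hi, -⟩ := h
  exact Fintype.one_lt_card_iff.mpr ⟨i, i', hi⟩

omit [Fintype R] in
private theorem mix_two_le_card_right {M N : R → C → Bool} (h : IsSwitch M N) :
    2 ≤ Fintype.card C := by
  obtain ⟨i, i', x, y, -, hx, -⟩ := h
  exact Fintype.one_lt_card_iff.mpr ⟨x, y, hx⟩

/-- If there is no switch at all, `tables r c` has at most one element. -/
private theorem mix_eq_of_no_switch (r : R → ℕ) (c : C → ℕ)
    (hno : ∀ M N : R → C → Bool, ¬ IsSwitch M N) {G M : R → C → Bool}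
    (hG : G ∈ tables r c) (hM : M ∈ tables r c) : M = G := by
  by_contra hne
  obtain ⟨f, hf⟩ : ∃ f : (R → C → Bool) → ℝ, ∀ K, f K = if K = G then 1 else 0 :=
    ⟨fun K => if K = G then 1 else 0, fun _ => rfl⟩
  have h1 := tables_poincare r c f
  have h0 : ∑ K ∈ tables r c, ∑ N ∈ tables r c,
      (if IsSwitch K N then (f K - f N) ^ 2 else 0) = 0 := by
    apply Finset.sum_eq_zero
    intro K _
    apply Finset.sum_eq_zero
    intro N _
    rw [if_neg (hno K N)]
  rw [h0, mul_zero] at h1
  have hnn : ∀ K ∈ tables r c,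
      0 ≤ (f K - (∑ N ∈ tables r c, f N) / ((tables r c).card : ℝ)) ^ 2 :=
    fun K _ => sq_nonneg _
  have hz := (Finset.sum_eq_zero_iff_of_nonneg hnn).mp (le_antisymm h1 (Finset.sum_nonneg hnn))
  have hG0 := hz G hG
  have hM0 := hz M hM
  rw [sq_eq_zero_iff, sub_eq_zero] at hG0 hM0
  have hfG : f G = 1 := by rw [hf G, if_pos rfl]
  have hfM : f M = 0 := by rw [hf M, if_neg hne]
  rw [hfG] at hG0
  rw [hfM] at hM0
  linarith

private theorem mix_choose_two_le (m : ℕ) : (m.choose 2 : ℝ) ≤ (m : ℝ) ^ 2 / 2 := by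
  have := Nat.choose_le_pow_div (α := ℝ) 2 m
  have h2 : ((Nat.factorial 2 : ℕ) : ℝ) = 2 := by norm_num [Nat.factorial]
  rw [h2] at this
  exact this

/-- The lazy switch chain on the 0/1 matrices with row sums `r` and column sums `c` is within
total variation distance `1/4` of uniform, from every start, at every time
`t ≥ (|R| * |C|) ^ 3`. -/
theorem mixed_poly (r : R → ℕ) (c : C → ℕ) (t : ℕ)
    (ht : (Fintype.card R * Fintype.card C) ^ 3 ≤ t) :
    ∀ G ∈ tables r c, tvUniform r c (dist r c G t) ≤ 1 / 4 := by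
  by_cases hsw : ∃ M N : R → C → Bool, IsSwitch M N
  · -- the main case: at least two rows and two columns
    obtain ⟨M₁, N₁, h₁⟩ := hsw
    have hm2 : 2 ≤ Fintype.card R := mix_two_le_card_left h₁
    have hn2 : 2 ≤ Fintype.card C := mix_two_le_card_right h₁
    obtain ⟨m, hm⟩ : ∃ m : ℕ, m = Fintype.card R := ⟨_, rfl⟩
    obtain ⟨n, hn⟩ : ∃ n : ℕ, n = Fintype.card C := ⟨_, rfl⟩
    rw [← hm] at hm2
    rw [← hn] at hn2
    have hP := poincare_two r c
    have hcard := card_tables_le r c
    rw [← hm, ← hn] at ht hP hcard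
    have hm2' : (2 : ℝ) ≤ m := by exact_mod_cast hm2
    have hn2' : (2 : ℝ) ≤ n := by exact_mod_cast hn2
    have ha1 : (1 : ℝ) ≤ (m.choose 2 : ℝ) := by
      have : 1 ≤ m.choose 2 := Nat.choose_pos hm2
      exact_mod_cast this
    have hb1 : (1 : ℝ) ≤ (n.choose 2 : ℝ) := by
      have : 1 ≤ n.choose 2 := Nat.choose_pos hn2
      exact_mod_cast this
    have ha2 := mix_choose_two_le m
    have hb2 := mix_choose_two_le n
    have hab1 : (1 : ℝ) ≤ (m.choose 2 : ℝ) * (n.choose 2 : ℝ) := by nlinarith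
    have hab2 : (m.choose 2 : ℝ) * (n.choose 2 : ℝ) ≤ ((m : ℝ) * n) ^ 2 / 4 := by
      have h1 : (m.choose 2 : ℝ) * (n.choose 2 : ℝ) ≤ ((m : ℝ) ^ 2 / 2) * ((n : ℝ) ^ 2 / 2) :=
        mul_le_mul ha2 hb2 (by linarith) (by positivity)
      have h2 : ((m : ℝ) ^ 2 / 2) * ((n : ℝ) ^ 2 / 2) = ((m : ℝ) * n) ^ 2 / 4 := by ring
      linarith
    have hq : moveProb m n = 1 / (4 * ((m.choose 2 : ℝ) * (n.choose 2 : ℝ))) := by
      unfold moveProb
      rw [mul_assoc]
    have hγ1 : 2 * moveProb m n ≤ 1 := by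
      rw [hq, mul_one_div, div_le_one (by positivity)]
      linarith
    intro G hG
    have hN1 : (1 : ℝ) ≤ ((tables r c).card : ℝ) := by
      have : 1 ≤ (tables r c).card := Finset.card_pos.mpr ⟨G, hG⟩
      exact_mod_cast this
    have hN2 : ((tables r c).card : ℝ) ≤ (2 : ℝ) ^ (m * n) := by exact_mod_cast hcard
    have hmn : (4 : ℝ) ≤ (m : ℝ) * n := by nlinarith
    have hlog : Real.log (4 * ((tables r c).card : ℝ)) ≤ 2 * ((m : ℝ) * n) := by
      have h1 : Real.log (4 * ((tables r c).card : ℝ))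
          ≤ Real.log ((2 : ℝ) ^ 2 * (2 : ℝ) ^ (m * n)) := by
        apply Real.log_le_log (by linarith)
        nlinarith
      have h2 : Real.log ((2 : ℝ) ^ 2 * (2 : ℝ) ^ (m * n))
          = ((2 : ℝ) + (m : ℝ) * n) * Real.log 2 := by
        rw [← pow_add, Real.log_pow]
        push_cast
        ring
      have h3 : Real.log 2 ≤ 1 := by
        have := Real.log_two_lt_d9
        linarith
      have h4 : (0 : ℝ) ≤ Real.log 2 := Real.log_nonneg (by norm_num)
      have h5 : ((2 : ℝ) + (m : ℝ) * n) * Real.log 2 ≤ (2 : ℝ) + (m : ℝ) * n := by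
        have : (0 : ℝ) ≤ (2 : ℝ) + (m : ℝ) * n := by positivity
        nlinarith
      linarith
    refine mixed_of_poincare hγ1 hP t ?_ G hG
    have ht' : ((m : ℝ) * n) ^ 3 ≤ (t : ℝ) := by exact_mod_cast ht
    have h6 : 2 * ((m : ℝ) * n) ≤ 2 * moveProb m n * ((m : ℝ) * n) ^ 3 := by
      rw [hq]
      have e : 2 * (1 / (4 * ((m.choose 2 : ℝ) * (n.choose 2 : ℝ)))) * ((m : ℝ) * n) ^ 3
          = ((m : ℝ) * n) ^ 3 / (2 * ((m.choose 2 : ℝ) * (n.choose 2 : ℝ))) := by
        field_simp
        ring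
      rw [e, le_div_iff₀ (by positivity)]
      have h7 : (0 : ℝ) ≤ 2 * ((m : ℝ) * n) := by positivity
      nlinarith [mul_le_mul_of_nonneg_left hab2 h7]
    have hq0 : 0 ≤ 2 * moveProb m n := by
      have := moveProb_nonneg m n
      linarith
    have h8 : 2 * moveProb m n * ((m : ℝ) * n) ^ 3 ≤ 2 * moveProb m n * (t : ℝ) :=
      mul_le_mul_of_nonneg_left ht' hq0
    linarith
  · -- the degenerate case: no switch exists, so there is at most one matrix
    have hno : ∀ M N : R → C → Bool, ¬ IsSwitch M N := fun M N h => hsw ⟨M, N, h⟩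
    intro G hG
    have hsing : tables r c = {G} := by
      ext M
      rw [Finset.mem_singleton]
      constructor
      · intro hM
        exact mix_eq_of_no_switch r c hno hG hM
      · intro e
        rw [e]
        exact hG
    have hsum := sum_dist hG t
    unfold tvUniform
    rw [hsing] at hsum ⊢
    rw [Finset.sum_singleton] at hsum ⊢
    rw [hsum, Finset.card_singleton]
    norm_num

end Vale.Agent.Lib.P335.BipChain
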